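import Vale.Agent.Lib.P254.Rev.Disc
import Vale.Agent.Lib.P254.Sym.Defs

/-!
# P254, bodies of revolution: the body and its slices

For a profile `r ≥ 0` on `[0,1]` the body of revolution

`revBody r = {x ∈ ℝ³ | 0 ≤ x₀ ≤ 1, x₁² + x₂² ≤ (r x₀)²}`

is invariant under the sign changes of the last two coordinates, and its slices `x₀ = t` are
the discs of radius `r t`.
-/

open MeasureTheory Set

namespace Vale.Agent.Lib.P254.Rev

open Vale.Agent.Lib.P254

/-- The body of revolution with profile `r` about the first coordinate axis. -/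
def revBody (r : ℝ → ℝ) : Set (Fin 3 → ℝ) :=
  {x | 0 ≤ x 0 ∧ x 0 ≤ 1 ∧ (x 1) ^ 2 + (x 2) ^ 2 ≤ (r (x 0)) ^ 2}

theorem revBody_flip1 {r : ℝ → ℝ} :
    ∀ x ∈ revBody r, Function.update x 1 (-(x 1)) ∈ revBody r := by
  intro x hx
  obtain ⟨hx0, hx1, hx2⟩ := hx
  have e0 : Function.update x 1 (-(x 1)) 0 = x 0 := Function.update_of_ne (by decide) _ _
  have e1 : Function.update x 1 (-(x 1)) 1 = -(x 1) := Function.update_self _ _ _
  have e2 : Function.update x 1 (-(x 1)) 2 = x 2 := Function.update_of_ne (by decide) _ _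
  refine ⟨?_, ?_, ?_⟩
  · rw [e0]
    exact hx0
  · rw [e0]
    exact hx1
  · rw [e0, e1, e2, neg_sq]
    exact hx2

theorem revBody_flip2 {r : ℝ → ℝ} :
    ∀ x ∈ revBody r, Function.update x 2 (-(x 2)) ∈ revBody r := by
  intro x hx
  obtain ⟨hx0, hx1, hx2⟩ := hx
  have e0 : Function.update x 2 (-(x 2)) 0 = x 0 := Function.update_of_ne (by decide) _ _
  have e1 : Function.update x 2 (-(x 2)) 1 = x 1 := Function.update_of_ne (by decide) _ _
  have e2 : Function.update x 2 (-(x 2)) 2 = -(x 2) := Function.update_self _ _ _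
  refine ⟨?_, ?_, ?_⟩
  · rw [e0]
    exact hx0
  · rw [e0]
    exact hx1
  · rw [e0, e1, e2, neg_sq]
    exact hx2

/-- The slices of the body are discs. -/
theorem sec_revBody_of_mem (r : ℝ → ℝ) {t : ℝ} (ht : t ∈ Icc (0:ℝ) 1) :
    sec (revBody r) t = disc (r t) := by
  ext y
  constructor
  · intro h
    have h' : (Fin.cons t y : Fin 3 → ℝ) ∈ revBody r := h
    exact h'.2.2
  · intro h
    show (Fin.cons t y : Fin 3 → ℝ) ∈ revBody r
    exact ⟨ht.1, ht.2, h⟩

theorem sec_revBody_of_not_mem (r : ℝ → ℝ) {t : ℝ} (ht : t ∉ Icc (0:ℝ) 1) :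
    sec (revBody r) t = ∅ := by
  ext y
  constructor
  · intro h
    have h' : (Fin.cons t y : Fin 3 → ℝ) ∈ revBody r := h
    exact ht ⟨h'.1, h'.2.1⟩
  · intro h
    exact False.elim h

end Vale.Agent.Lib.P254.Rev
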