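import Vale.Agent.Lib.P254.Rev.Body
import Vale.Agent.Lib.P254.Ramp.BodyP

/-!
# P254, bodies of revolution: compactness
-/

open MeasureTheory Set

namespace Vale.Agent.Lib.P254.Rev

open Vale.Agent.Lib.P254

theorem compact_isClosed {r : ℝ → ℝ} (hcont : ContinuousOn r (Icc 0 1)) :
    IsClosed (revBody r) := by
  have hrk : Continuous fun t : ℝ => r (Ramp.clampP t) :=
    hcont.comp_continuous Ramp.continuous_clampP Ramp.clampP_mem
  have heq : revBody r = {x : Fin 3 → ℝ | 0 ≤ x 0} ∩ {x | x 0 ≤ 1}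
      ∩ {x | (x 1) ^ 2 + (x 2) ^ 2 ≤ (r (Ramp.clampP (x 0))) ^ 2} := by
    ext x
    constructor
    · rintro ⟨h0, h1, h2⟩
      refine ⟨⟨h0, h1⟩, ?_⟩
      show (x 1) ^ 2 + (x 2) ^ 2 ≤ (r (Ramp.clampP (x 0))) ^ 2
      rw [Ramp.clampP_eq h0 h1]
      exact h2
    · rintro ⟨⟨h0, h1⟩, h2⟩
      have h0' : 0 ≤ x 0 := h0
      have h1' : x 0 ≤ 1 := h1
      have h2' : (x 1) ^ 2 + (x 2) ^ 2 ≤ (r (Ramp.clampP (x 0))) ^ 2 := h2
      rw [Ramp.clampP_eq h0' h1'] at h2'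
      exact ⟨h0', h1', h2'⟩
  rw [heq]
  have c0 : Continuous fun x : Fin 3 → ℝ => x 0 := continuous_apply 0
  have c1 : Continuous fun x : Fin 3 → ℝ => x 1 := continuous_apply 1
  have c2 : Continuous fun x : Fin 3 → ℝ => x 2 := continuous_apply 2
  exact ((isClosed_le continuous_const c0).inter (isClosed_le c0 continuous_const)).inter
    (isClosed_le ((c1.pow 2).add (c2.pow 2)) ((hrk.comp c0).pow 2))

theorem revBody_isCompact {r : ℝ → ℝ} (hcont : ContinuousOn r (Icc 0 1)) :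
    IsCompact (revBody r) := by
  obtain ⟨M, hM⟩ := isCompact_Icc.exists_bound_of_continuousOn hcont
  refine Metric.isCompact_of_isClosed_isBounded (compact_isClosed hcont) ?_
  refine (Metric.isBounded_closedBall (x := (0 : Fin 3 → ℝ)) (r := max 1 M)).subset ?_
  intro x hx
  obtain ⟨hx0, hx1, hx2⟩ := hx
  rw [mem_closedBall_zero_iff, pi_norm_le_iff_of_nonneg (le_trans zero_le_one (le_max_left _ _))]
  intro i
  rw [Real.norm_eq_abs]
  have hrM : |r (x 0)| ≤ M := by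
    have h := hM (x 0) ⟨hx0, hx1⟩
    rwa [Real.norm_eq_abs] at h
  have hM0 : 0 ≤ M := le_trans (abs_nonneg _) hrM
  have hr2 : (r (x 0)) ^ 2 ≤ M ^ 2 := by
    rw [← sq_abs (r (x 0))]
    exact pow_le_pow_left₀ (abs_nonneg _) hrM 2
  fin_cases i
  · show |x 0| ≤ max 1 M
    rw [abs_of_nonneg hx0]
    exact le_trans hx1 (le_max_left _ _)
  · show |x 1| ≤ max 1 M
    have h : (x 1) ^ 2 ≤ M ^ 2 := by nlinarith [sq_nonneg (x 2)]
    exact le_trans (abs_le_of_sq_le_sq h hM0) (le_max_right _ _)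
  · show |x 2| ≤ max 1 M
    have h : (x 2) ^ 2 ≤ M ^ 2 := by nlinarith [sq_nonneg (x 1)]
    exact le_trans (abs_le_of_sq_le_sq h hM0) (le_max_right _ _)

end Vale.Agent.Lib.P254.Rev
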