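import Vale.Agent.Lib.P254.Rev.Body

/-!
# P254, bodies of revolution: convexity
-/

open MeasureTheory Set

namespace Vale.Agent.Lib.P254.Rev

open Vale.Agent.Lib.P254

theorem convex_sq_aux {x1 x2 y1 y2 ρ σ a b : ℝ} (hρ : 0 ≤ ρ) (hσ : 0 ≤ σ)
    (hx : x1 ^ 2 + x2 ^ 2 ≤ ρ ^ 2) (hy : y1 ^ 2 + y2 ^ 2 ≤ σ ^ 2) (ha : 0 ≤ a) (hb : 0 ≤ b) :
    (a * x1 + b * y1) ^ 2 + (a * x2 + b * y2) ^ 2 ≤ (a * ρ + b * σ) ^ 2 := by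
  have hcs : x1 * y1 + x2 * y2 ≤ ρ * σ := by
    have h1 : (x1 * y1 + x2 * y2) ^ 2 ≤ (ρ * σ) ^ 2 := by
      have h2 : (x1 * y1 + x2 * y2) ^ 2 ≤ (x1 ^ 2 + x2 ^ 2) * (y1 ^ 2 + y2 ^ 2) := by
        nlinarith [sq_nonneg (x1 * y2 - x2 * y1)]
      have h3 : (x1 ^ 2 + x2 ^ 2) * (y1 ^ 2 + y2 ^ 2) ≤ ρ ^ 2 * σ ^ 2 :=
        mul_le_mul hx hy (by positivity) (by positivity)
      calc (x1 * y1 + x2 * y2) ^ 2 ≤ (x1 ^ 2 + x2 ^ 2) * (y1 ^ 2 + y2 ^ 2) := h2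
        _ ≤ ρ ^ 2 * σ ^ 2 := h3
        _ = (ρ * σ) ^ 2 := by ring
    exact (abs_le_of_sq_le_sq' h1 (mul_nonneg hρ hσ)).2
  have hab : 0 ≤ a * b := mul_nonneg ha hb
  have e : (a * ρ + b * σ) ^ 2 - ((a * x1 + b * y1) ^ 2 + (a * x2 + b * y2) ^ 2)
      = a ^ 2 * (ρ ^ 2 - (x1 ^ 2 + x2 ^ 2)) + b ^ 2 * (σ ^ 2 - (y1 ^ 2 + y2 ^ 2))
        + 2 * (a * b) * (ρ * σ - (x1 * y1 + x2 * y2)) := by ring
  have t1 : 0 ≤ a ^ 2 * (ρ ^ 2 - (x1 ^ 2 + x2 ^ 2)) := mul_nonneg (sq_nonneg a) (by linarith)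
  have t2 : 0 ≤ b ^ 2 * (σ ^ 2 - (y1 ^ 2 + y2 ^ 2)) := mul_nonneg (sq_nonneg b) (by linarith)
  have t3 : 0 ≤ 2 * (a * b) * (ρ * σ - (x1 * y1 + x2 * y2)) :=
    mul_nonneg (by linarith) (by linarith)
  linarith

theorem revBody_convex {r : ℝ → ℝ} (hc : ConcaveOn ℝ (Icc 0 1) r)
    (hr0 : ∀ t ∈ Icc (0:ℝ) 1, 0 ≤ r t) : Convex ℝ (revBody r) := by
  intro x hx y hy a b ha hb hab
  obtain ⟨hx0, hx1, hx2⟩ := hx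
  obtain ⟨hy0, hy1, hy2⟩ := hy
  have e0 : (a • x + b • y) 0 = a * x 0 + b * y 0 := by simp
  have e1 : (a • x + b • y) 1 = a * x 1 + b * y 1 := by simp
  have e2 : (a • x + b • y) 2 = a * x 2 + b * y 2 := by simp
  have hcc := hc.2 ⟨hx0, hx1⟩ ⟨hy0, hy1⟩ ha hb hab
  simp only [smul_eq_mul] at hcc
  have hρ : 0 ≤ r (x 0) := hr0 _ ⟨hx0, hx1⟩
  have hσ : 0 ≤ r (y 0) := hr0 _ ⟨hy0, hy1⟩
  refine ⟨?_, ?_, ?_⟩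
  · rw [e0]
    positivity
  · rw [e0]
    calc a * x 0 + b * y 0 ≤ a * 1 + b * 1 :=
          add_le_add (mul_le_mul_of_nonneg_left hx1 ha) (mul_le_mul_of_nonneg_left hy1 hb)
      _ = 1 := by rw [mul_one, mul_one, hab]
  · rw [e0, e1, e2]
    have h0 : 0 ≤ a * r (x 0) + b * r (y 0) :=
      add_nonneg (mul_nonneg ha hρ) (mul_nonneg hb hσ)
    calc (a * x 1 + b * y 1) ^ 2 + (a * x 2 + b * y 2) ^ 2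
        ≤ (a * r (x 0) + b * r (y 0)) ^ 2 := convex_sq_aux hρ hσ hx2 hy2 ha hb
      _ ≤ (r (a * x 0 + b * y 0)) ^ 2 := pow_le_pow_left₀ h0 hcc 2

end Vale.Agent.Lib.P254.Rev
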