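import Vale.Agent.Lib.P254.Defs

/-!
# P254, bodies of revolution: the disc in the plane

The closed disc `{y | y₀² + y₁² ≤ s²}` in `ℝ²` (as `Fin 2 → ℝ`).
-/

open MeasureTheory Set

namespace Vale.Agent.Lib.P254.Rev

open Vale.Agent.Lib.P254

/-- The closed disc of radius `s` centred at the origin of `ℝ²`. -/
def disc (s : ℝ) : Set (Fin 2 → ℝ) := {y | (y 0) ^ 2 + (y 1) ^ 2 ≤ s ^ 2}

theorem isClosed_disc (s : ℝ) : IsClosed (disc s) := by
  have c0 : Continuous fun y : Fin 2 → ℝ => y 0 := continuous_apply 0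
  have c1 : Continuous fun y : Fin 2 → ℝ => y 1 := continuous_apply 1
  exact isClosed_le ((c0.pow 2).add (c1.pow 2)) continuous_const

theorem measurableSet_disc (s : ℝ) : MeasurableSet (disc s) :=
  (isClosed_disc s).measurableSet

/-- The disc as a preimage of the planar disc in `ℝ × ℝ`. -/
theorem disc_eq_preimage (s : ℝ) :
    disc s = MeasurableEquiv.finTwoArrow ⁻¹' {p : ℝ × ℝ | p.1 ^ 2 + p.2 ^ 2 ≤ s ^ 2} := by
  ext y
  exact Iff.rfl

end Vale.Agent.Lib.P254.Rev
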