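import Vale.Agent.Lib.P254.Rev.Disc
import Mathlib.Analysis.SpecialFunctions.PolarCoord
import Mathlib.Analysis.SpecialFunctions.Integrals.Basic

/-!
# P254, bodies of revolution: the second moment of the first coordinate over the disc
-/

open MeasureTheory Set

namespace Vale.Agent.Lib.P254.Rev

open Vale.Agent.Lib.P254

theorem discsq0_rho {s : ℝ} (hs : 0 ≤ s) :
    ∫ r in Ioi (0:ℝ), (Iic s).indicator (fun r : ℝ => r ^ 3) r = s ^ 4 / 4 := by
  rw [setIntegral_indicator measurableSet_Iic, Ioi_inter_Iic,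
    ← intervalIntegral.integral_of_le hs, integral_pow]
  norm_num

theorem discsq0_theta : ∫ θ in Ioo (-Real.pi) Real.pi, Real.cos θ ^ 2 = Real.pi := by
  rw [← integral_Ioc_eq_integral_Ioo,
    ← intervalIntegral.integral_of_le (by linarith [Real.pi_pos]), integral_cos_sq]
  simp only [Real.sin_pi, Real.sin_neg, mul_zero, neg_zero, sub_zero, zero_add]
  ring

theorem discsq0_polar_sq (r θ : ℝ) :
    (r * Real.cos θ) ^ 2 + (r * Real.sin θ) ^ 2 = r ^ 2 := by
  have h := Real.cos_sq_add_sin_sq θ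
  calc (r * Real.cos θ) ^ 2 + (r * Real.sin θ) ^ 2
      = r ^ 2 * (Real.cos θ ^ 2 + Real.sin θ ^ 2) := by ring
    _ = r ^ 2 := by rw [h, mul_one]

theorem discsq0_plane {s : ℝ} (hs : 0 ≤ s) :
    ∫ z in {p : ℝ × ℝ | p.1 ^ 2 + p.2 ^ 2 ≤ s ^ 2}, z.1 ^ 2 = Real.pi * s ^ 4 / 4 := by
  have hD : MeasurableSet {p : ℝ × ℝ | p.1 ^ 2 + p.2 ^ 2 ≤ s ^ 2} :=
    measurableSet_le ((measurable_fst.pow_const 2).add (measurable_snd.pow_const 2))
      measurable_const
  rw [← integral_indicator hD, ← integral_comp_polarCoord_symm]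
  have hcongr : ∀ p ∈ polarCoord.target,
      p.1 • ({p : ℝ × ℝ | p.1 ^ 2 + p.2 ^ 2 ≤ s ^ 2}.indicator (fun z : ℝ × ℝ => z.1 ^ 2)
          (polarCoord.symm p))
        = (Iic s).indicator (fun r : ℝ => r ^ 3) p.1 * Real.cos p.2 ^ 2 := by
    intro p hp
    rw [polarCoord_target] at hp
    have hp1 : 0 < p.1 := hp.1
    rw [polarCoord_symm_apply]
    by_cases h : p.1 ≤ s
    · have hm : (p.1 * Real.cos p.2, p.1 * Real.sin p.2) ∈
          {p : ℝ × ℝ | p.1 ^ 2 + p.2 ^ 2 ≤ s ^ 2} := by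
        show (p.1 * Real.cos p.2) ^ 2 + (p.1 * Real.sin p.2) ^ 2 ≤ s ^ 2
        rw [discsq0_polar_sq]
        exact pow_le_pow_left₀ hp1.le h 2
      rw [indicator_of_mem hm, indicator_of_mem (show p.1 ∈ Iic s from h)]
      simp only [smul_eq_mul]
      ring
    · have hm : (p.1 * Real.cos p.2, p.1 * Real.sin p.2) ∉
          {p : ℝ × ℝ | p.1 ^ 2 + p.2 ^ 2 ≤ s ^ 2} := by
        intro hm
        have hm' : (p.1 * Real.cos p.2) ^ 2 + (p.1 * Real.sin p.2) ^ 2 ≤ s ^ 2 := hm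
        rw [discsq0_polar_sq] at hm'
        exact h (le_of_sq_le_sq hm' hs)
      rw [indicator_of_notMem hm, indicator_of_notMem (show p.1 ∉ Iic s from h)]
      simp
  rw [setIntegral_congr_fun polarCoord.open_target.measurableSet hcongr, polarCoord_target,
    Measure.volume_eq_prod,
    setIntegral_prod_mul (fun r : ℝ => (Iic s).indicator (fun r : ℝ => r ^ 3) r)
      (fun θ : ℝ => Real.cos θ ^ 2) (Ioi (0:ℝ)) (Ioo (-Real.pi) Real.pi),
    discsq0_rho hs, discsq0_theta]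
  ring

/-- `∫ y₀²` over the disc of radius `s` is `π s⁴ / 4`. -/
theorem int_sq0_disc {s : ℝ} (hs : 0 ≤ s) :
    ∫ y in disc s, (y 0) ^ 2 = Real.pi * s ^ 4 / 4 := by
  rw [disc_eq_preimage]
  have h := (volume_preserving_finTwoArrow ℝ).setIntegral_preimage_emb
    (MeasurableEquiv.finTwoArrow).measurableEmbedding (fun z : ℝ × ℝ => z.1 ^ 2)
    {p : ℝ × ℝ | p.1 ^ 2 + p.2 ^ 2 ≤ s ^ 2}
  rw [discsq0_plane hs] at h
  exact h

end Vale.Agent.Lib.P254.Rev
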