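import Vale.Agent.Lib.P254.Rev.Disc

/-!
# P254, bodies of revolution: the second moment of the second coordinate over the disc
-/

open MeasureTheory Set

namespace Vale.Agent.Lib.P254.Rev

open Vale.Agent.Lib.P254

theorem discsq1_norm (ρ θ : ℝ) :
    (ρ * Real.cos θ) ^ 2 + (ρ * Real.sin θ) ^ 2 = ρ ^ 2 := by
  have h := Real.sin_sq_add_cos_sq θ
  calc (ρ * Real.cos θ) ^ 2 + (ρ * Real.sin θ) ^ 2
      = ρ ^ 2 * (Real.sin θ ^ 2 + Real.cos θ ^ 2) := by ring
    _ = ρ ^ 2 := by rw [h, mul_one]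

/-- The planar version, in polar coordinates. -/
theorem discsq1_planar {s : ℝ} (hs : 0 ≤ s) :
    ∫ p in {p : ℝ × ℝ | p.1 ^ 2 + p.2 ^ 2 ≤ s ^ 2}, p.2 ^ 2 = Real.pi * s ^ 4 / 4 := by
  have hD : MeasurableSet {p : ℝ × ℝ | p.1 ^ 2 + p.2 ^ 2 ≤ s ^ 2} := by
    apply measurableSet_le
    · fun_prop
    · exact measurable_const
  rw [← integral_indicator hD, ← integral_comp_polarCoord_symm]
  have hcongr : ∀ q ∈ polarCoord.target,
      q.1 • ({p : ℝ × ℝ | p.1 ^ 2 + p.2 ^ 2 ≤ s ^ 2}.indicator (fun p : ℝ × ℝ => p.2 ^ 2)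
        (polarCoord.symm q))
      = (Set.Iic s).indicator (fun ρ : ℝ => ρ ^ 3) q.1 * (Real.sin q.2) ^ 2 := by
    intro q hq
    rw [polarCoord_target] at hq
    have hq1 : 0 < q.1 := hq.1
    have hsymm : polarCoord.symm q = (q.1 * Real.cos q.2, q.1 * Real.sin q.2) := rfl
    rw [hsymm]
    by_cases hle : q.1 ≤ s
    · have hmem : (q.1 * Real.cos q.2, q.1 * Real.sin q.2) ∈
          {p : ℝ × ℝ | p.1 ^ 2 + p.2 ^ 2 ≤ s ^ 2} := by
        show (q.1 * Real.cos q.2) ^ 2 + (q.1 * Real.sin q.2) ^ 2 ≤ s ^ 2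
        rw [discsq1_norm]
        exact pow_le_pow_left₀ hq1.le hle 2
      rw [Set.indicator_of_mem hmem, Set.indicator_of_mem (Set.mem_Iic.2 hle), smul_eq_mul]
      ring
    · have hnmem : (q.1 * Real.cos q.2, q.1 * Real.sin q.2) ∉
          {p : ℝ × ℝ | p.1 ^ 2 + p.2 ^ 2 ≤ s ^ 2} := by
        intro hmem
        have hmem' : (q.1 * Real.cos q.2) ^ 2 + (q.1 * Real.sin q.2) ^ 2 ≤ s ^ 2 := hmem
        rw [discsq1_norm] at hmem'
        exact hle ((sq_le_sq₀ hq1.le hs).1 hmem')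
      rw [Set.indicator_of_notMem hnmem, Set.indicator_of_notMem (fun h => hle (Set.mem_Iic.1 h)),
        smul_zero, zero_mul]
  rw [setIntegral_congr_fun polarCoord.open_target.measurableSet hcongr, polarCoord_target,
    Measure.volume_eq_prod,
    setIntegral_prod_mul ((Set.Iic s).indicator (fun ρ : ℝ => ρ ^ 3))
      (fun θ : ℝ => Real.sin θ ^ 2)]
  have h1 : ∫ ρ in Ioi (0:ℝ), (Set.Iic s).indicator (fun ρ : ℝ => ρ ^ 3) ρ = s ^ 4 / 4 := by
    rw [setIntegral_indicator measurableSet_Iic, Set.Ioi_inter_Iic,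
      ← intervalIntegral.integral_of_le hs, integral_pow]
    norm_num
  have h2 : ∫ θ in Ioo (-Real.pi) Real.pi, Real.sin θ ^ 2 = Real.pi := by
    rw [← integral_Ioc_eq_integral_Ioo,
      ← intervalIntegral.integral_of_le (by linarith [Real.pi_pos]), integral_sin_sq]
    simp only [Real.sin_neg, Real.sin_pi, neg_zero, zero_mul, sub_zero]
    ring
  rw [h1, h2]
  ring

/-- `∫ y₁²` over the disc of radius `s` is `π s⁴ / 4`. -/
theorem int_sq1_disc {s : ℝ} (hs : 0 ≤ s) :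
    ∫ y in disc s, (y 1) ^ 2 = Real.pi * s ^ 4 / 4 := by
  rw [disc_eq_preimage]
  have h := (volume_preserving_finTwoArrow ℝ).setIntegral_preimage_emb
    (MeasurableEquiv.finTwoArrow).measurableEmbedding (fun z : ℝ × ℝ => z.2 ^ 2)
    {p : ℝ × ℝ | p.1 ^ 2 + p.2 ^ 2 ≤ s ^ 2}
  rw [discsq1_planar hs] at h
  exact h

end Vale.Agent.Lib.P254.Rev
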