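import Vale.Agent.Lib.P254.Rev.Disc

/-!
# P254, bodies of revolution: the area of the disc
-/

open MeasureTheory Set

namespace Vale.Agent.Lib.P254.Rev

open Vale.Agent.Lib.P254

/-- The planar disc in `ℝ × ℝ` is measurable. -/
theorem discvol_planar_meas (s : ℝ) :
    MeasurableSet {p : ℝ × ℝ | p.1 ^ 2 + p.2 ^ 2 ≤ s ^ 2} :=
  (isClosed_le ((continuous_fst.pow 2).add (continuous_snd.pow 2)) continuous_const).measurableSet

/-- The planar disc in `ℝ × ℝ` corresponds to the closed ball of the complex plane. -/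
theorem discvol_preimage_eq {s : ℝ} (hs : 0 ≤ s) :
    Complex.measurableEquivRealProd ⁻¹' {p : ℝ × ℝ | p.1 ^ 2 + p.2 ^ 2 ≤ s ^ 2} =
      Metric.closedBall (0 : ℂ) s := by
  ext z
  have h1 : ‖z‖ ^ 2 = z.re ^ 2 + z.im ^ 2 := by
    rw [Complex.sq_norm, Complex.normSq_apply]
    ring
  constructor
  · intro hz
    have hz' : z.re ^ 2 + z.im ^ 2 ≤ s ^ 2 := hz
    rw [Metric.mem_closedBall, dist_zero_right]
    rw [← h1] at hz'
    exact (pow_le_pow_iff_left₀ (norm_nonneg z) hs two_ne_zero).mp hz'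
  · intro hz
    rw [Metric.mem_closedBall, dist_zero_right] at hz
    have hz' : ‖z‖ ^ 2 ≤ s ^ 2 := (pow_le_pow_iff_left₀ (norm_nonneg z) hs two_ne_zero).mpr hz
    rw [h1] at hz'
    exact hz'

/-- The area of the disc of radius `s`. -/
theorem vol_disc {s : ℝ} (hs : 0 ≤ s) : vol (disc s) = Real.pi * s ^ 2 := by
  unfold vol
  rw [disc_eq_preimage, (volume_preserving_finTwoArrow ℝ).measure_preimage
    (discvol_planar_meas s).nullMeasurableSet,
    ← Complex.volume_preserving_equiv_real_prod.measure_preimage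
      (discvol_planar_meas s).nullMeasurableSet,
    discvol_preimage_eq hs, Complex.volume_closedBall, ENNReal.toReal_mul, ENNReal.toReal_pow,
    ENNReal.toReal_ofReal hs, ENNReal.coe_toReal, NNReal.coe_real_pi]
  ring

end Vale.Agent.Lib.P254.Rev
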