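import Vale.Agent.Lib.P254.Rev.Body
import Vale.Agent.Lib.P254.Ramp.BodyP

/-!
# P254, bodies of revolution: nonempty interior
-/

open MeasureTheory Set

namespace Vale.Agent.Lib.P254.Rev

open Vale.Agent.Lib.P254

theorem revBody_interior {r : ℝ → ℝ} (hc : ConcaveOn ℝ (Icc 0 1) r)
    (hcont : ContinuousOn r (Icc 0 1)) (hr0 : ∀ t ∈ Icc (0:ℝ) 1, 0 ≤ r t)
    (hne : ∃ t ∈ Icc (0:ℝ) 1, 0 < r t) : (interior (revBody r)).Nonempty := by
  have hh : 0 < r (1 / 2) := Ramp.concave_pos_half hc hr0 hne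
  have hnh : Icc (0:ℝ) 1 ∈ nhds (1 / 2 : ℝ) := Icc_mem_nhds (by norm_num) (by norm_num)
  have hat : ContinuousAt r (1 / 2) := hcont.continuousAt hnh
  obtain ⟨d1, hd1, hd1r⟩ := Metric.continuousAt_iff.mp hat (r (1 / 2) / 2) (by linarith)
  set d : ℝ := min d1 (1 / 4) with hd
  have hdpos : 0 < d := lt_min hd1 (by norm_num)
  have hdd1 : d ≤ d1 := min_le_left _ _
  have hd4 : d ≤ 1 / 4 := min_le_right _ _
  set U : Set (Fin 3 → ℝ) := {x | x 0 ∈ Ioo (1 / 2 - d) (1 / 2 + d)}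
    ∩ {x | x 1 ∈ Ioo (-(r (1 / 2) / 4)) (r (1 / 2) / 4)}
    ∩ {x | x 2 ∈ Ioo (-(r (1 / 2) / 4)) (r (1 / 2) / 4)} with hU
  have hUo : IsOpen U :=
    ((isOpen_Ioo.preimage (continuous_apply 0)).inter
      (isOpen_Ioo.preimage (continuous_apply 1))).inter
      (isOpen_Ioo.preimage (continuous_apply 2))
  have hUK : U ⊆ revBody r := by
    rintro x ⟨⟨h0, h1⟩, h2⟩
    have h0' : x 0 ∈ Ioo (1 / 2 - d) (1 / 2 + d) := h0
    have h1' : x 1 ∈ Ioo (-(r (1 / 2) / 4)) (r (1 / 2) / 4) := h1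
    have h2' : x 2 ∈ Ioo (-(r (1 / 2) / 4)) (r (1 / 2) / 4) := h2
    have hdist1 : dist (x 0) (1 / 2) < d1 := by
      rw [Real.dist_eq, abs_lt]
      constructor
      · linarith [h0'.1]
      · linarith [h0'.2]
    have hrx := hd1r hdist1
    rw [Real.dist_eq, abs_lt] at hrx
    have hrlow : r (1 / 2) / 2 < r (x 0) := by linarith [hrx.1]
    refine ⟨by linarith [h0'.1], by linarith [h0'.2], ?_⟩
    have hs1 : (x 1) ^ 2 ≤ (r (1 / 2) / 4) ^ 2 := by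
      have ha : |x 1| ≤ r (1 / 2) / 4 := abs_le.mpr ⟨h1'.1.le, h1'.2.le⟩
      have hb := pow_le_pow_left₀ (abs_nonneg (x 1)) ha 2
      rw [sq_abs] at hb
      exact hb
    have hs2 : (x 2) ^ 2 ≤ (r (1 / 2) / 4) ^ 2 := by
      have ha : |x 2| ≤ r (1 / 2) / 4 := abs_le.mpr ⟨h2'.1.le, h2'.2.le⟩
      have hb := pow_le_pow_left₀ (abs_nonneg (x 2)) ha 2
      rw [sq_abs] at hb
      exact hb
    have hs3 : (r (1 / 2) / 2) ^ 2 ≤ (r (x 0)) ^ 2 :=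
      pow_le_pow_left₀ (by linarith) hrlow.le 2
    nlinarith [sq_nonneg (r (1 / 2))]
  refine ⟨![1 / 2, 0, 0], interior_maximal hUK hUo ?_⟩
  refine ⟨⟨?_, ?_⟩, ?_⟩
  · show (![1 / 2, 0, 0] : Fin 3 → ℝ) 0 ∈ Ioo (1 / 2 - d) (1 / 2 + d)
    simp only [Matrix.cons_val_zero]
    exact ⟨by linarith, by linarith⟩
  · show (![1 / 2, 0, 0] : Fin 3 → ℝ) 1 ∈ Ioo (-(r (1 / 2) / 4)) (r (1 / 2) / 4)
    simp only [Matrix.cons_val_one, Matrix.cons_val_zero]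
    exact ⟨by linarith, by linarith⟩
  · show (![1 / 2, 0, 0] : Fin 3 → ℝ) 2 ∈ Ioo (-(r (1 / 2) / 4)) (r (1 / 2) / 4)
    simp only [Matrix.cons_val_two, Matrix.tail_cons, Matrix.head_cons]
    exact ⟨by linarith, by linarith⟩

end Vale.Agent.Lib.P254.Rev
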