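import Vale.Agent.Lib.P254.Two.Reduce0

/-!
# P254, two planes of symmetry: the exact second-moment form of the reduction

For a compact set `K ⊆ ℝ³` with nonempty interior, invariant under the sign changes of the last
two coordinates, `det Σ_K / |K|² = m₂(1) m₂(2) (|K| ∫ x₀² - (∫ x₀)²) / |K|⁶`; so a strict bound
of this quantity by `9/8000` gives `L_K < L_T` for every tetrahedron `T`.
-/

open MeasureTheory Set

namespace Vale.Agent.Lib.P254.Rev

open Vale.Agent.Lib.P254 Vale.Agent.Lib.P254.Two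

/-- Second moment of the second coordinate by slices. -/
theorem sq1_slice {K : Set (Fin 3 → ℝ)} (hK : IsCompact K) :
    m2 K 1 = ∫ t, ∫ y in sec K t, (y 0) ^ 2 := by
  unfold m2
  rw [integral_slice hK (fun x => (x 1) ^ 2) (by fun_prop)]
  congr 1

/-- Second moment of the third coordinate by slices. -/
theorem sq2_slice {K : Set (Fin 3 → ℝ)} (hK : IsCompact K) :
    m2 K 2 = ∫ t, ∫ y in sec K t, (y 1) ^ 2 := by
  unfold m2
  rw [integral_slice hK (fun x => (x 2) ^ 2) (by fun_prop)]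
  congr 1

/-- **Reduction, exact second-moment form, strict.** -/
theorem two_flip0_isotropic_lt_of_m2 (K : Set (Fin 3 → ℝ)) (hK : IsCompact K)
    (hi : (interior K).Nonempty)
    (h1 : ∀ x ∈ K, Function.update x 1 (-(x 1)) ∈ K)
    (h2 : ∀ x ∈ K, Function.update x 2 (-(x 2)) ∈ K)
    (hm : 8000 * (m2 K 1 * m2 K 2 *
      (vol K * (∫ x in K, (x 0) ^ 2) - (∫ x in K, x 0) ^ 2)) < 9 * (vol K) ^ 6)
    (T : Fin 4 → Fin 3 → ℝ) (hT : AffineIndependent ℝ T) :
    isotropicConstant K < isotropicConstant (convexHull ℝ (Set.range T)) := by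
  have hV : 0 < vol K := vol_pos_of_interior hK hi
  have hW := vol_mul_cm0 hK hV
  rw [← hW] at hm
  have hx1 : 0 ≤ m2 K 1 := integral_nonneg fun x => sq_nonneg (x 1)
  have hx2 : 0 ≤ m2 K 2 := integral_nonneg fun x => sq_nonneg (x 2)
  have hw : 0 ≤ cm0 K := cm0_nonneg K
  have hdet : (covMatrix K).det =
      ((vol K)⁻¹ * cm0 K) * ((vol K)⁻¹ * m2 K 1) * ((vol K)⁻¹ * m2 K 2) := by
    rw [covMatrix_two_flip0 h1 h2, Matrix.det_diagonal, Fin.prod_univ_three]
    rfl
  have hratio : (covMatrix K).det / (vol K) ^ 2 = (cm0 K * m2 K 1 * m2 K 2) / (vol K) ^ 5 := by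
    rw [hdet]
    field_simp
  have hnn : 0 ≤ (covMatrix K).det / (vol K) ^ 2 := by
    rw [hratio]
    positivity
  have hlt : (covMatrix K).det / (vol K) ^ 2 < 9 / 8000 := by
    rw [hratio, div_lt_iff₀ (by positivity)]
    have h3 : (cm0 K * m2 K 1 * m2 K 2) * vol K < 9 / 8000 * vol K ^ 5 * vol K := by
      nlinarith
    exact lt_of_mul_lt_mul_right h3 hV.le
  unfold isotropicConstant
  rw [ratio_general_simplex T hT]
  have hnum : (9 / 8000 : ℝ) = simplexRatio 3 := by
    norm_num [simplexRatio, Nat.factorial]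
  rw [hnum] at hlt
  exact Real.rpow_lt_rpow hnn hlt (by norm_num)

end Vale.Agent.Lib.P254.Rev
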