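import Vale.Agent.Lib.P254.Rev.Slices
import Vale.Agent.Lib.P254.Rev.Convex
import Vale.Agent.Lib.P254.Rev.Compact
import Vale.Agent.Lib.P254.Rev.Interior
import Vale.Agent.Lib.P254.Rev.Reduce

/-!
# P254, bodies of revolution: the final statement, conditional on the one-dimensional inequality

For a continuous concave profile `r ≥ 0` on `[0,1]`, not identically zero, the body of revolution
`{x ∈ ℝ³ | 0 ≤ x₀ ≤ 1, x₁² + x₂² ≤ (r x₀)²}` has
`det Σ_K / |K|² = C² (A M₂ - M₁²) / (16 π² A⁶)` with `A = ∫ r²`, `C = ∫ r⁴`, `M₁ = ∫ t r²`,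
`M₂ = ∫ t² r²`; so the one-dimensional inequality `56 C² (A M₂ - M₁²) ≤ 9 A⁶` gives
`L_K < L_T` for every tetrahedron `T` (because `π > 3`).
-/

open MeasureTheory Set

namespace Vale.Agent.Lib.P254.Rev

open Vale.Agent.Lib.P254

/-- **Bodies of revolution, conditional on the one-dimensional inequality.** -/
theorem revBody_isotropic_lt_of_sq (r : ℝ → ℝ) (hc : ConcaveOn ℝ (Icc 0 1) r)
    (hcont : ContinuousOn r (Icc 0 1)) (hr0 : ∀ t ∈ Icc (0:ℝ) 1, 0 ≤ r t)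
    (hne : ∃ t ∈ Icc (0:ℝ) 1, 0 < r t)
    (hsq : 56 * (∫ t in (0:ℝ)..1, (r t) ^ 4) ^ 2 *
        ((∫ t in (0:ℝ)..1, (r t) ^ 2) * (∫ t in (0:ℝ)..1, t ^ 2 * (r t) ^ 2)
          - (∫ t in (0:ℝ)..1, t * (r t) ^ 2) ^ 2)
      ≤ 9 * (∫ t in (0:ℝ)..1, (r t) ^ 2) ^ 6)
    (T : Fin 4 → Fin 3 → ℝ) (hT : AffineIndependent ℝ T) :
    isotropicConstant (revBody r) < isotropicConstant (convexHull ℝ (Set.range T)) := by
  have hK : IsCompact (revBody r) := revBody_isCompact hcont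
  have hi : (interior (revBody r)).Nonempty := revBody_interior hc hcont hr0 hne
  have hV : 0 < vol (revBody r) := vol_pos_of_interior hK hi
  refine two_flip0_isotropic_lt_of_m2 (revBody r) hK hi revBody_flip1 revBody_flip2 ?_ T hT
  have e1 : m2 (revBody r) 1 = Real.pi / 4 * ∫ t in (0:ℝ)..1, (r t) ^ 4 := by
    rw [sq1_slice hK, rev_int_sq0 hr0]
  have e2 : m2 (revBody r) 2 = Real.pi / 4 * ∫ t in (0:ℝ)..1, (r t) ^ 4 := by
    rw [sq2_slice hK, rev_int_sq1 hr0]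
  have eV : vol (revBody r) = Real.pi * ∫ t in (0:ℝ)..1, (r t) ^ 2 := by
    rw [vol_slice hK, rev_int_vol hr0]
  have eM1 : ∫ x in revBody r, x 0 = Real.pi * ∫ t in (0:ℝ)..1, t * (r t) ^ 2 := by
    rw [Two.moment0_slice hK, rev_int_t_vol hr0]
  have eM2 : ∫ x in revBody r, (x 0) ^ 2 = Real.pi * ∫ t in (0:ℝ)..1, t ^ 2 * (r t) ^ 2 := by
    have h := m2_zero_slice hK
    unfold m2 at h
    rw [h, rev_int_t2_vol hr0]
  rw [eV] at hV
  rw [e1, e2, eV, eM1, eM2]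
  set A : ℝ := ∫ t in (0:ℝ)..1, (r t) ^ 2 with hA
  set C : ℝ := ∫ t in (0:ℝ)..1, (r t) ^ 4 with hC
  set M1 : ℝ := ∫ t in (0:ℝ)..1, t * (r t) ^ 2 with hM1
  set M2 : ℝ := ∫ t in (0:ℝ)..1, t ^ 2 * (r t) ^ 2 with hM2
  have hpi : 3 < Real.pi := Real.pi_gt_three
  have hpi0 : 0 < Real.pi := Real.pi_pos
  have hApos : 0 < A := by
    by_contra hcon
    have hA0 : A ≤ 0 := not_lt.mp hcon
    have : Real.pi * A ≤ 0 := mul_nonpos_of_nonneg_of_nonpos hpi0.le hA0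
    linarith
  have e : 8000 * (Real.pi / 4 * C * (Real.pi / 4 * C) *
      (Real.pi * A * (Real.pi * M2) - (Real.pi * M1) ^ 2))
      = Real.pi ^ 4 * (500 * C ^ 2 * (A * M2 - M1 ^ 2)) := by ring
  have e' : 9 * (Real.pi * A) ^ 6 = Real.pi ^ 4 * (9 * Real.pi ^ 2 * A ^ 6) := by ring
  rw [e, e']
  apply mul_lt_mul_of_pos_left _ (by positivity)
  have hA6 : 0 < A ^ 6 := by positivity
  have hpi2 : 9 < Real.pi ^ 2 := by nlinarith
  have h2 : 0 < (Real.pi ^ 2 - 9) * A ^ 6 := mul_pos (sub_pos.mpr hpi2) hA6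
  linarith [hsq, h2, hA6]

/-- **Bodies of revolution, with the convex-body properties, conditional on the one-dimensional
inequality.** -/
theorem revBody_convexBody_isotropic_lt_of_sq (r : ℝ → ℝ) (hc : ConcaveOn ℝ (Icc 0 1) r)
    (hcont : ContinuousOn r (Icc 0 1)) (hr0 : ∀ t ∈ Icc (0:ℝ) 1, 0 ≤ r t)
    (hne : ∃ t ∈ Icc (0:ℝ) 1, 0 < r t)
    (hsq : 56 * (∫ t in (0:ℝ)..1, (r t) ^ 4) ^ 2 *
        ((∫ t in (0:ℝ)..1, (r t) ^ 2) * (∫ t in (0:ℝ)..1, t ^ 2 * (r t) ^ 2)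
          - (∫ t in (0:ℝ)..1, t * (r t) ^ 2) ^ 2)
      ≤ 9 * (∫ t in (0:ℝ)..1, (r t) ^ 2) ^ 6)
    (T : Fin 4 → Fin 3 → ℝ) (hT : AffineIndependent ℝ T) :
    IsCompact (revBody r) ∧ Convex ℝ (revBody r) ∧ (interior (revBody r)).Nonempty ∧
      isotropicConstant (revBody r) < isotropicConstant (convexHull ℝ (Set.range T)) :=
  ⟨revBody_isCompact hcont, revBody_convex hc hr0, revBody_interior hc hcont hr0 hne,
    revBody_isotropic_lt_of_sq r hc hcont hr0 hne hsq T hT⟩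

end Vale.Agent.Lib.P254.Rev
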