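import Vale.Agent.Lib.P254.Rev.Final
import Vale.Agent.Lib.P254.Sq.Main

/-!
# P254, bodies of revolution: the class

For a continuous concave profile `r ≥ 0` on `[0,1]`, not identically zero, the body of revolution
`{x ∈ ℝ³ | 0 ≤ x₀ ≤ 1, x₁² + x₂² ≤ (r x₀)²}` is a convex body whose isotropic constant is
strictly below that of the tetrahedra.
-/

open MeasureTheory Set

namespace Vale.Agent.Lib.P254.Rev

open Vale.Agent.Lib.P254

/-- **Bodies of revolution in `ℝ³`.** -/
theorem revBody_convexBody_isotropic_lt (r : ℝ → ℝ) (hc : ConcaveOn ℝ (Icc 0 1) r)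
    (hcont : ContinuousOn r (Icc 0 1)) (hr0 : ∀ t ∈ Icc (0:ℝ) 1, 0 ≤ r t)
    (hne : ∃ t ∈ Icc (0:ℝ) 1, 0 < r t)
    (T : Fin 4 → Fin 3 → ℝ) (hT : AffineIndependent ℝ T) :
    IsCompact (revBody r) ∧ Convex ℝ (revBody r) ∧ (interior (revBody r)).Nonempty ∧
      isotropicConstant (revBody r) < isotropicConstant (convexHull ℝ (Set.range T)) :=
  revBody_convexBody_isotropic_lt_of_sq r hc hcont hr0 hne (Sq.sq_ineq r hc hcont hr0 hne) T hT

end Vale.Agent.Lib.P254.Rev
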