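import Vale.Agent.Lib.P254.Rev.Body
import Vale.Agent.Lib.P254.Rev.DiscVol
import Vale.Agent.Lib.P254.Rev.DiscSq0
import Vale.Agent.Lib.P254.Rev.DiscSq1

/-!
# P254, bodies of revolution: the slice integrals
-/

open MeasureTheory Set

namespace Vale.Agent.Lib.P254.Rev

open Vale.Agent.Lib.P254

theorem slices_cons1 (t : ℝ) (y : Fin 2 → ℝ) : (Fin.cons t y : Fin 3 → ℝ) 1 = y 0 := rfl

theorem slices_cons2 (t : ℝ) (y : Fin 2 → ℝ) : (Fin.cons t y : Fin 3 → ℝ) 2 = y 1 := rfl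

theorem slices_sec_in {r : ℝ → ℝ} {t : ℝ} (ht : t ∈ Icc (0:ℝ) 1) :
    sec (revBody r) t = disc (r t) := by
  have e0 : ∀ y : Fin 2 → ℝ, (Fin.cons t y : Fin 3 → ℝ) 0 = t := fun y => rfl
  ext y
  constructor
  · intro h
    have h' : (Fin.cons t y : Fin 3 → ℝ) ∈ revBody r := h
    obtain ⟨_, _, h3⟩ := h'
    rw [slices_cons1, slices_cons2, e0] at h3
    exact h3
  · intro h
    have h' : (y 0) ^ 2 + (y 1) ^ 2 ≤ (r t) ^ 2 := h
    show (Fin.cons t y : Fin 3 → ℝ) ∈ revBody r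
    refine ⟨?_, ?_, ?_⟩
    · rw [e0]
      exact ht.1
    · rw [e0]
      exact ht.2
    · rw [e0, slices_cons1, slices_cons2]
      exact h'

theorem slices_sec_out {r : ℝ → ℝ} {t : ℝ} (ht : t ∉ Icc (0:ℝ) 1) :
    sec (revBody r) t = ∅ := by
  have e0 : ∀ y : Fin 2 → ℝ, (Fin.cons t y : Fin 3 → ℝ) 0 = t := fun y => rfl
  ext y
  constructor
  · intro h
    have h' : (Fin.cons t y : Fin 3 → ℝ) ∈ revBody r := h
    obtain ⟨h1, h2, _⟩ := h'
    rw [e0] at h1 h2
    exact absurd ⟨h1, h2⟩ ht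
  · intro h
    exact absurd h (Set.notMem_empty y)

theorem slices_gen (g h : ℝ → ℝ) (hin : ∀ t ∈ Icc (0:ℝ) 1, g t = h t)
    (hout : ∀ t, t ∉ Icc (0:ℝ) 1 → g t = 0) : ∫ t, g t = ∫ t in (0:ℝ)..1, h t := by
  have e : g = (Icc (0:ℝ) 1).indicator h := by
    funext t
    by_cases ht : t ∈ Icc (0:ℝ) 1
    · rw [indicator_of_mem ht, hin t ht]
    · rw [indicator_of_notMem ht, hout t ht]
  subst e
  rw [integral_indicator measurableSet_Icc, integral_Icc_eq_integral_Ioc,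
    ← intervalIntegral.integral_of_le zero_le_one]

theorem slices_vol_empty : vol (∅ : Set (Fin 2 → ℝ)) = 0 := by
  simp [vol]

section slices

variable {r : ℝ → ℝ} (hr0 : ∀ t ∈ Icc (0:ℝ) 1, 0 ≤ r t)

include hr0

theorem rev_int_vol :
    ∫ t, vol (sec (revBody r) t) = Real.pi * ∫ t in (0:ℝ)..1, (r t) ^ 2 := by
  rw [← intervalIntegral.integral_const_mul]
  refine slices_gen _ _ (fun t ht => ?_) (fun t ht => ?_)
  · show vol (sec (revBody r) t) = Real.pi * (r t) ^ 2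
    rw [slices_sec_in ht, vol_disc (hr0 t ht)]
  · show vol (sec (revBody r) t) = 0
    rw [slices_sec_out ht, slices_vol_empty]

theorem rev_int_t_vol :
    ∫ t, t * vol (sec (revBody r) t) = Real.pi * ∫ t in (0:ℝ)..1, t * (r t) ^ 2 := by
  rw [← intervalIntegral.integral_const_mul]
  refine slices_gen _ _ (fun t ht => ?_) (fun t ht => ?_)
  · show t * vol (sec (revBody r) t) = Real.pi * (t * (r t) ^ 2)
    rw [slices_sec_in ht, vol_disc (hr0 t ht)]
    ring
  · show t * vol (sec (revBody r) t) = 0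
    rw [slices_sec_out ht, slices_vol_empty, mul_zero]

theorem rev_int_t2_vol :
    ∫ t, t ^ 2 * vol (sec (revBody r) t) = Real.pi * ∫ t in (0:ℝ)..1, t ^ 2 * (r t) ^ 2 := by
  rw [← intervalIntegral.integral_const_mul]
  refine slices_gen _ _ (fun t ht => ?_) (fun t ht => ?_)
  · show t ^ 2 * vol (sec (revBody r) t) = Real.pi * (t ^ 2 * (r t) ^ 2)
    rw [slices_sec_in ht, vol_disc (hr0 t ht)]
    ring
  · show t ^ 2 * vol (sec (revBody r) t) = 0
    rw [slices_sec_out ht, slices_vol_empty, mul_zero]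

theorem rev_int_sq0 :
    ∫ t, ∫ y in sec (revBody r) t, (y 0) ^ 2 = Real.pi / 4 * ∫ t in (0:ℝ)..1, (r t) ^ 4 := by
  rw [← intervalIntegral.integral_const_mul]
  refine slices_gen _ _ (fun t ht => ?_) (fun t ht => ?_)
  · show ∫ y in sec (revBody r) t, (y 0) ^ 2 = Real.pi / 4 * (r t) ^ 4
    rw [slices_sec_in ht, int_sq0_disc (hr0 t ht)]
    ring
  · show ∫ y in sec (revBody r) t, (y 0) ^ 2 = 0
    rw [slices_sec_out ht, Measure.restrict_empty, integral_zero_measure]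

theorem rev_int_sq1 :
    ∫ t, ∫ y in sec (revBody r) t, (y 1) ^ 2 = Real.pi / 4 * ∫ t in (0:ℝ)..1, (r t) ^ 4 := by
  rw [← intervalIntegral.integral_const_mul]
  refine slices_gen _ _ (fun t ht => ?_) (fun t ht => ?_)
  · show ∫ y in sec (revBody r) t, (y 1) ^ 2 = Real.pi / 4 * (r t) ^ 4
    rw [slices_sec_in ht, int_sq1_disc (hr0 t ht)]
    ring
  · show ∫ y in sec (revBody r) t, (y 1) ^ 2 = 0
    rw [slices_sec_out ht, Measure.restrict_empty, integral_zero_measure]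

end slices

end Vale.Agent.Lib.P254.Rev
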